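import Vale.Agent.P097.H531.CD.Defs
import Vale.Agent.P097.H407.Hol

/-!
# P097 / case [d], row P, part P1: local vertex positions near the real axis

Owner: helper324.
-/

set_option linter.all false

open Complex Metric Filter Topology Set
open scoped ComplexConjugate

namespace Vale.Agent.P097.H324.CD

open Vale.Agent.P097 Vale.Agent.P097.TA Vale.Agent.P097.H202 Vale.Agent.P097.SC
open Vale.Agent.P097.H456.Fct Vale.Agent.P097.CD

/-- identity theorem on a strip, from the real line -/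
theorem eqOn_str {b : ℝ} (hb : 0 < b) {f g : ℂ → ℂ} (hf : DifferentiableOn ℂ f (Str b))
    (hg : DifferentiableOn ℂ g (Str b)) (h : ∀ x : ℝ, f x = g x) : EqOn f g (Str b) := by
  have hf' : AnalyticOnNhd ℂ f (Str b) := hf.analyticOnNhd (isOpen_Str b)
  have hg' : AnalyticOnNhd ℂ g (Str b) := hg.analyticOnNhd (isOpen_Str b)
  refine hf'.eqOn_of_preconnected_of_frequently_eq hg' (convex_Str b).isPreconnected
    (real_mem_Str hb 0) ?_
  have h1 : Tendsto (fun n : ℕ => (((1 : ℝ) / (n + 1) : ℝ) : ℂ)) atTop (𝓝[≠] ((0 : ℝ) : ℂ)) := by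
    refine tendsto_nhdsWithin_iff.2 ⟨?_, Eventually.of_forall fun n => ?_⟩
    · exact (continuous_ofReal.tendsto 0).comp tendsto_one_div_add_atTop_nhds_zero_nat
    · show (((1 : ℝ) / (n + 1) : ℝ) : ℂ) ≠ ((0 : ℝ) : ℂ)
      intro hh
      have h2 := ofReal_injective hh
      have h3 : (0 : ℝ) < 1 / ((n : ℝ) + 1) := by positivity
      linarith
  exact h1.frequently (Eventually.of_forall fun n => h _).frequently

/-- a function with derivative `0` on a convex set is constant -/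
theorem const_of_deriv {S : Set ℂ} (hS : Convex ℝ S) {f : ℂ → ℂ}
    (hf : ∀ z ∈ S, HasDerivAt f 0 z) {a b : ℂ} (ha : a ∈ S) (hb : b ∈ S) : f a = f b := by
  have h2 := hS.norm_image_sub_le_of_norm_hasDerivWithin_le (f := f) (f' := fun _ => 0) (C := 0)
    (fun w hw => (hf w hw).hasDerivWithinAt) (fun w _ => by simp) hb ha
  rw [zero_mul, norm_le_zero_iff, sub_eq_zero] at h2
  exact h2

theorem comp_add {f : ℂ × ℂ → ℂ} {u : ℂ × ℂ} (h : AnalyticAt ℂ f (u.1 + u.2 / 2, u.2)) :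
    AnalyticAt ℂ (fun u : ℂ × ℂ => f (u.1 + u.2 / 2, u.2)) u :=
  h.comp_of_eq (f := fun u : ℂ × ℂ => (u.1 + u.2 / 2, u.2))
    ((analyticAt_fst.add (analyticAt_snd.div_const)).prod analyticAt_snd) rfl

theorem comp_sub {f : ℂ × ℂ → ℂ} {u : ℂ × ℂ} (h : AnalyticAt ℂ f (u.1 - u.2 / 2, u.2)) :
    AnalyticAt ℂ (fun u : ℂ × ℂ => f (u.1 - u.2 / 2, u.2)) u :=
  h.comp_of_eq (f := fun u : ℂ × ℂ => (u.1 - u.2 / 2, u.2))
    ((analyticAt_fst.sub (analyticAt_snd.div_const)).prod analyticAt_snd) rfl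

/-- the inverse of the normal angle -/
theorem exists_psi {h : ℝ → ℝ} {κ ρ Λ L : ℝ} {H HH lam Φ : ℂ → ℂ} {l φ : ℝ → ℝ}
    (T : LD h κ ρ Λ L H HH lam Φ l φ) {F q : ℂ → ℂ} (dF : Differentiable ℂ F)
    (dq : Differentiable ℂ q) (re : ∀ x : ℝ, F x = Φ x ∧ q x = H (Φ x)) :
    ∃ Ψ : ℂ → ℂ, DifferentiableOn ℂ Ψ (Str κ) ∧
      (∀ z ∈ Str κ, Ψ (z + 2 * Real.pi) = Ψ z + 1) ∧ (∀ z ∈ Str κ, F (Ψ z) = z) ∧
      (∀ z ∈ Str κ, q (Ψ z) = H z) ∧ (∀ z ∈ Str ρ, Ψ (Φ z) = z) := by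
  obtain ⟨Ψ0, h0⟩ := prim_convex (isOpen_Str κ) (convex_Str κ) (T.dlam.div_const (Λ : ℂ))
  have hΛ : (Λ : ℂ) ≠ 0 := by exact_mod_cast T.Λ0.ne'
  have z0 : (0 : ℂ) ∈ Str ρ := by simpa using real_mem_Str T.ρ0 0
  set Ψ : ℂ → ℂ := fun z => Ψ0 z - Ψ0 (Φ 0) with hΨ
  have dΨ : ∀ z ∈ Str κ, HasDerivAt Ψ (lam z / Λ) z := fun z hz => (h0 z hz).sub_const _
  have dΨ' : DifferentiableOn ℂ Ψ (Str κ) := fun z hz => (dΨ z hz).differentiableAt.differentiableWithinAt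
  have hid : ∀ z ∈ Str ρ, Ψ (Φ z) = z := by
    intro z hz
    have h1 : ∀ z ∈ Str ρ, HasDerivAt (fun z => Ψ (Φ z) - z) 0 z := by
      intro z hz
      have h2 := ((dΨ _ (T.Φm' hz)).comp z (T.dΦ z hz)).sub (hasDerivAt_id z)
      refine h2.congr_deriv ?_
      have h3 := T.lam0 _ (T.Φm' hz)
      field_simp
      ring
    have h2 := const_of_deriv (convex_Str ρ) h1 hz z0
    simp only [hΨ, sub_self, sub_zero] at h2
    show Ψ0 (Φ z) - Ψ0 (Φ 0) = z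
    linear_combination h2
  have hper : ∀ z ∈ Str κ, Ψ (z + 2 * Real.pi) = Ψ z + 1 := by
    intro z hz
    have h1 : ∀ z ∈ Str κ, HasDerivAt (fun z => Ψ (z + 2 * Real.pi) - Ψ z) 0 z := by
      intro z hz
      have hz' : z + 2 * Real.pi ∈ Str κ := by
        have := add_real_mem_Str hz (2 * Real.pi)
        simpa using this
      have h2 := ((dΨ _ hz').comp_add_const z (2 * (Real.pi : ℂ))).sub (dΨ z hz)
      refine h2.congr_deriv ?_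
      rw [T.lamp z hz, sub_self]
    have h2 := const_of_deriv (convex_Str κ) h1 hz (T.Φm' z0)
    have h3 : Φ 0 + 2 * Real.pi = Φ 1 := by
      rw [← T.Φp 0 z0, zero_add]
    have h4 : Ψ (Φ 1) = 1 := hid 1 (by simpa using real_mem_Str T.ρ0 1)
    have h5 : Ψ (Φ 0) = 0 := hid 0 z0
    rw [h3, h4, h5] at h2
    linear_combination h2
  have hsurj : ∀ x : ℝ, ∃ s : ℝ, φ s = x := by
    intro x
    have hc : Continuous φ := continuous_iff_continuousAt.2 fun s => (T.dφ s).continuousAt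
    have hg : Function.Periodic (fun s => φ s - 2 * Real.pi * s) 1 := by
      intro s
      simp only [T.φp s]
      ring
    have hn : ∀ n : ℤ, φ n = φ 0 + 2 * Real.pi * n := by
      intro n
      have h1 := hg.int_mul n 0
      simp only [zero_add, mul_one, mul_zero, sub_zero] at h1
      linarith
    have hpi := Real.pi_pos
    obtain ⟨n, hn1⟩ := exists_int_gt ((x - φ 0) / (2 * Real.pi))
    obtain ⟨m, hm1⟩ := exists_int_lt ((x - φ 0) / (2 * Real.pi))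
    rw [div_lt_iff₀ (by positivity)] at hn1
    rw [lt_div_iff₀ (by positivity)] at hm1
    have h1 : x ∈ range φ := mem_range_of_exists_le_of_exists_ge hc
      ⟨m, by rw [hn]; linarith⟩ ⟨n, by rw [hn]; linarith⟩
    exact h1
  have hre : ∀ x : ℝ, F (Ψ x) = x ∧ q (Ψ x) = H x := by
    intro x
    obtain ⟨s, hs⟩ := hsurj x
    have h1 : Φ s = x := by rw [T.Φr, hs]
    have h2 := hid s (real_mem_Str T.ρ0 s)
    rw [h1] at h2
    rw [h2, (re s).1, (re s).2, h1]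
    exact ⟨rfl, rfl⟩
  refine ⟨Ψ, dΨ', hper, ?_, ?_, hid⟩
  · exact fun z hz => eqOn_str T.κ0 (f := fun z => F (Ψ z)) (g := fun z => z)
      (dF.comp_differentiableOn dΨ') differentiableOn_id (fun x => (hre x).1) hz
  · exact fun z hz => eqOn_str T.κ0 (f := fun z => q (Ψ z)) (g := H)
      (dq.comp_differentiableOn dΨ') T.dH (fun x => (hre x).2) hz

/-! ### tubes -/

theorem isOpen_Tb (y ρ : ℝ) : IsOpen (Tb y ρ) := by
  have h1 : IsOpen {u : ℂ × ℂ | |u.1.im| < y} :=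
    isOpen_lt (by fun_prop) (by fun_prop)
  have h2 : IsOpen {u : ℂ × ℂ | ‖u.2‖ < ρ} := isOpen_lt (by fun_prop) (by fun_prop)
  exact h1.inter h2

theorem convex_Tb (y ρ : ℝ) : Convex ℝ (Tb y ρ) := by
  have h1 : Tb y ρ = Str y ×ˢ ball (0 : ℂ) ρ := by
    ext u
    simp [Tb, Str]
  rw [h1]
  exact (convex_Str y).prod (convex_ball _ _)

theorem mem_Tb {y ρ : ℝ} {t w : ℂ} : (t, w) ∈ Tb y ρ ↔ |t.im| < y ∧ ‖w‖ < ρ := Iff.rfl

/-- identity theorem on tubes -/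
theorem eqOn_Tb {y ρ : ℝ} (hy : 0 < y) (hρ : 0 < ρ) {f g : ℂ × ℂ → ℂ}
    (hf : AnalyticOnNhd ℂ f (Tb y ρ)) (hg : AnalyticOnNhd ℂ g (Tb y ρ))
    (h : f =ᶠ[𝓝 ((0 : ℂ), (0 : ℂ))] g) : EqOn f g (Tb y ρ) :=
  hf.eqOn_of_preconnected_of_eventuallyEq hg (convex_Tb y ρ).isPreconnected
    (by simpa [Tb] using And.intro hy hρ) h

theorem half_mem {y y' ρ : ℝ} (hy : y' + ρ / 2 ≤ y) {u : ℂ × ℂ} (hu : u ∈ Tb y' ρ) :
    (u.1 + u.2 / 2, u.2) ∈ Tb y ρ ∧ (u.1 - u.2 / 2, u.2) ∈ Tb y ρ := by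
  have h1 : |u.1.im| < y' := hu.1
  have h2 : ‖u.2‖ < ρ := hu.2
  have h3 := abs_im_le_norm u.2
  have h4 := abs_le.1 h3
  have h5 := abs_lt.1 h1
  refine ⟨⟨?_, h2⟩, ⟨?_, h2⟩⟩
  · show |(u.1 + u.2 / 2).im| < y
    rw [add_im, div_ofNat_im, abs_lt]
    constructor <;> linarith [h4.1, h4.2, h5.1, h5.2]
  · show |(u.1 - u.2 / 2).im| < y
    rw [sub_im, div_ofNat_im, abs_lt]
    constructor <;> linarith [h4.1, h4.2, h5.1, h5.2]

/-- the lines at `t ± w / 2` as functions of `(t, w)` -/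
theorem half_an {y y' ρ : ℝ} {f : ℂ × ℂ → ℂ} (hf : AnalyticOnNhd ℂ f (Tb y ρ))
    (hy : y' + ρ / 2 ≤ y) :
    AnalyticOnNhd ℂ (fun u : ℂ × ℂ => f (u.1 + u.2 / 2, u.2)) (Tb y' ρ) ∧
    AnalyticOnNhd ℂ (fun u : ℂ × ℂ => f (u.1 - u.2 / 2, u.2)) (Tb y' ρ) :=
  ⟨fun u hu => comp_add (hf _ (half_mem hy hu).1), fun u hu => comp_sub (hf _ (half_mem hy hu).2)⟩

/-- the vertex positions near the real axis -/
structure Loc (κ r e r₀ e₀ C₁ : ℝ) (H : ℂ → ℂ) (α p : ℂ → ℂ → ℂ) (F q : ℂ → ℂ)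
    (θ : ℂ × ℂ → ℂ) : Prop where
  r0 : 0 < r₀
  e0 : 0 < e₀
  er : e₀ ≤ r₀
  rr : r₀ ≤ r
  ee : e₀ ≤ e
  hr : r₀ + e₀ / 2 ≤ r
  C1 : 1 ≤ C₁
  an : AnalyticOnNhd ℂ θ (Tb r₀ e₀)
  z : ∀ t : ℂ, |t.im| < r₀ → θ (t, 0) = t
  per : ∀ t w : ℂ, (t, w) ∈ Tb r₀ e₀ → θ (t + 1, w) = θ (t, w) + 1
  ev : ∀ t w : ℂ, (t, w) ∈ Tb r₀ e₀ → θ (t, -w) = θ (t, w)
  sA : ∀ t w : ℂ, (t, w) ∈ Tb r₀ e₀ →
    α (t + w / 2) w + α (t - w / 2) w = 2 * F (θ (t, w))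
  sP : ∀ t w : ℂ, (t, w) ∈ Tb r₀ e₀ → p (t + w / 2) w + p (t - w / 2) w =
    2 * q (θ (t, w)) * cos ((α (t + w / 2) w - α (t - w / 2) w) / 2)
  dP : ∀ t w : ℂ, (t, w) ∈ Tb r₀ e₀ →
    deriv F (θ (t, w)) * (p (t + w / 2) w - p (t - w / 2) w) =
    2 * deriv q (θ (t, w)) * sin ((α (t + w / 2) w - α (t - w / 2) w) / 2)
  lo : ∀ t w : ℂ, |t.im| ≤ ‖w‖ → ‖w‖ < e₀ → ‖θ (t, w) - t‖ ≤ C₁ * ‖w‖
  cs : ∀ t w : ℂ, ‖t‖ < r₀ → ‖w‖ < e₀ →
    cos ((α (t + w / 2) w - α (t - w / 2) w) / 2) ≠ 0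

theorem loc_pre {κ Λ : ℝ} {H Φ : ℂ → ℂ} {r e : ℝ} {α p : ℂ → ℂ → ℂ} {J F q : ℂ → ℂ}
    (hE : En κ Λ H Φ r e α p J F q) :
    ∃ (ρ : ℝ) (θ : ℂ × ℂ → ℂ), 0 < ρ ∧ AnalyticOnNhd ℂ θ (WW (1 / 2) r e) ∧
      (∀ t w : ℂ, (t, w) ∈ WW (1 / 2) r e → θ (t + 1, w) = θ (t, w) + 1) ∧
      (∀ t : ℂ, |t.im| < r → |t.im| < ρ → θ (t, 0) = t) ∧
      (∀ t w : ℂ, (t, w) ∈ WW (1 / 2) r e → θ (t, -w) = θ (t, w)) ∧
      (∀ t w : ℂ, (t, w) ∈ WW (1 / 2) r e →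
        α (t + w / 2) w + α (t - w / 2) w = 2 * F (θ (t, w))) ∧
      (∀ t w : ℂ, (t, w) ∈ WW (1 / 2) r e → p (t + w / 2) w + p (t - w / 2) w =
        2 * q (θ (t, w)) * cos ((α (t + w / 2) w - α (t - w / 2) w) / 2)) ∧
      (∀ t w : ℂ, (t, w) ∈ WW (1 / 2) r e →
        deriv F (θ (t, w)) * (p (t + w / 2) w - p (t - w / 2) w) =
        2 * deriv q (θ (t, w)) * sin ((α (t + w / 2) w - α (t - w / 2) w) / 2)) := by
  obtain ⟨h, ρ, L, HH, lam, l, φ, T⟩ := hE.ctx.ld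
  have N := hE.ctx.ln
  obtain ⟨Ψ, dΨ, Ψp, FΨ, qΨ, ΨΦ⟩ := exists_psi T hE.dF hE.dq hE.re
  have hr := N.hr
  have he := N.he
  have hκ := T.κ0
  have aΨ : AnalyticOnNhd ℂ Ψ (Str κ) := dΨ.analyticOnNhd (isOpen_Str κ)
  have aα : AnalyticOnNhd ℂ (fun u : ℂ × ℂ => α u.1 u.2) (WW 0 r e) :=
    Hol.analyticOnNhd_of_differentiableOn (isOpen_WW _ _ _) N.jα
  -- membership
  have hmem : ∀ {t w s : ℂ}, (t, w) ∈ WW (1 / 2) r e → ‖s‖ ≤ 1 / 2 → s.im = 0 →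
      (t + s * w, w) ∈ WW 0 r e := by
    intro t w s h hs hs0
    refine ⟨h.1, ?_⟩
    have h1 : |t.im| + 1 / 2 * |w.im| < r := h.2
    have h2 : (s * w).im = s.re * w.im := by rw [mul_im, hs0]; ring
    have h3 : |s.re| ≤ 1 / 2 := (abs_re_le_norm s).trans hs
    have h4 : |(s * w).im| ≤ 1 / 2 * |w.im| := by
      rw [h2, abs_mul]
      exact mul_le_mul_of_nonneg_right h3 (abs_nonneg _)
    have h5 := abs_add_le t.im (s * w).im
    show |(t + s * w).im| + 0 * |w.im| < r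
    rw [add_im, zero_mul, add_zero]
    linarith
  have hp1 : ∀ {t w : ℂ}, (t, w) ∈ WW (1 / 2) r e → (t + w / 2, w) ∈ WW 0 r e := by
    intro t w h
    have := hmem (s := 1 / 2) h (by simp) (by simp)
    rwa [show t + 1 / 2 * w = t + w / 2 by ring] at this
  have hm1 : ∀ {t w : ℂ}, (t, w) ∈ WW (1 / 2) r e → (t - w / 2, w) ∈ WW 0 r e := by
    intro t w h
    have := hmem (s := -1 / 2) h (by simp [norm_div]) (by simp)
    rwa [show t + -1 / 2 * w = t - w / 2 by ring] at this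
  set m : ℂ × ℂ → ℂ := fun u => (α (u.1 + u.2 / 2) u.2 + α (u.1 - u.2 / 2) u.2) / 2 with hm
  have mS : ∀ u ∈ WW (1 / 2) r e, m u ∈ Str (κ / 2) := by
    intro u hu
    have h1 : |(α (u.1 + u.2 / 2) u.2).im| < κ / 2 := N.mem _ _ (hp1 hu)
    have h2 : |(α (u.1 - u.2 / 2) u.2).im| < κ / 2 := N.mem _ _ (hm1 hu)
    rw [abs_lt] at h1 h2
    show |(m u).im| < κ / 2
    simp only [hm]
    rw [div_ofNat_im, add_im, abs_lt]
    constructor <;> linarith [h1.1, h1.2, h2.1, h2.2]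
  have mS' : ∀ u ∈ WW (1 / 2) r e, m u ∈ Str κ := fun u hu => Str_mono (by linarith) (mS u hu)
  have am : AnalyticOnNhd ℂ m (WW (1 / 2) r e) := by
    intro u hu
    have g3 := comp_add (aα _ (hp1 hu))
    have g4 := comp_sub (aα _ (hm1 hu))
    exact (g3.add g4).div_const
  set θ : ℂ × ℂ → ℂ := fun u => Ψ (m u) with hθ
  have aθ : AnalyticOnNhd ℂ θ (WW (1 / 2) r e) := fun u hu =>
    (aΨ _ (mS' u hu)).comp_of_eq (am u hu) rfl
  have w1 : ∀ {t w : ℂ}, (t, w) ∈ WW (1 / 2) r e → (t + 1, w) ∈ WW (1 / 2) r e := by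
    intro t w h
    refine ⟨h.1, ?_⟩
    have h1 := h.2
    simpa using h1
  have hper : ∀ t w : ℂ, (t, w) ∈ WW (1 / 2) r e → θ (t + 1, w) = θ (t, w) + 1 := by
    intro t w h
    have h1 := N.αper _ _ (hp1 h)
    have h2 := N.αper _ _ (hm1 h)
    have h3 : m (t + 1, w) = m (t, w) + 2 * Real.pi := by
      simp only [hm]
      rw [show t + 1 + w / 2 = t + w / 2 + 1 by ring, show t + 1 - w / 2 = t - w / 2 + 1 by ring,
        h1, h2]
      ring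
    show Ψ (m (t + 1, w)) = Ψ (m (t, w)) + 1
    rw [h3, Ψp _ (mS' _ h)]
  have hz : ∀ t : ℂ, |t.im| < r → |t.im| < ρ → θ (t, 0) = t := by
    intro t h1 h2
    have h3 : m (t, 0) = Φ t := by
      simp only [hm, zero_div, add_zero, sub_zero]
      rw [N.αzero t h1]
      ring
    show Ψ (m (t, 0)) = t
    rw [h3, ΨΦ t h2]
  have hev : ∀ t w : ℂ, (t, w) ∈ WW (1 / 2) r e → θ (t, -w) = θ (t, w) := by
    intro t w h
    have h1 : m (t, -w) = m (t, w) := by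
      simp only [hm]
      rw [show t + -w / 2 = t - w / 2 by ring, show t - -w / 2 = t + w / 2 by ring,
        N.αev _ _ (hm1 h), N.αev _ _ (hp1 h)]
      ring
    show Ψ (m (t, -w)) = Ψ (m (t, w))
    rw [h1]
  have hF : ∀ u ∈ WW (1 / 2) r e, F (θ u) = m u := fun u hu => FΨ _ (mS' u hu)
  have hq : ∀ u ∈ WW (1 / 2) r e, q (θ u) = H (m u) := fun u hu => qΨ _ (mS' u hu)
  have hdq : ∀ u ∈ WW (1 / 2) r e, deriv F (θ u) * deriv H (m u) = deriv q (θ u) := by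
    intro u hu
    have hs := mS' u hu
    have k1 : HasDerivAt Ψ (deriv Ψ (m u)) (m u) := (aΨ _ hs).differentiableAt.hasDerivAt
    have k2 := (hE.dF (Ψ (m u))).hasDerivAt.comp (m u) k1
    have k3 := (hE.dq (Ψ (m u))).hasDerivAt.comp (m u) k1
    have c2 : (F ∘ Ψ) =ᶠ[𝓝 (m u)] fun z => z := by
      filter_upwards [(isOpen_Str κ).mem_nhds hs] with z hz
      exact FΨ z hz
    have c3 : (q ∘ Ψ) =ᶠ[𝓝 (m u)] H := by
      filter_upwards [(isOpen_Str κ).mem_nhds hs] with z hz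
      exact qΨ z hz
    have d2 : deriv F (Ψ (m u)) * deriv Ψ (m u) = 1 := by
      rw [← k2.deriv, c2.deriv_eq]
      exact deriv_id _
    have d3 : deriv q (Ψ (m u)) * deriv Ψ (m u) = deriv H (m u) := by
      rw [← k3.deriv, c3.deriv_eq]
    show deriv F (Ψ (m u)) * deriv H (m u) = deriv q (Ψ (m u))
    rw [← d3]
    linear_combination deriv q (Ψ (m u)) * d2
  have kA : ∀ t w : ℂ, (t, w) ∈ WW (1 / 2) r e →
      α (t + w / 2) w + α (t - w / 2) w = 2 * F (θ (t, w)) := by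
    intro t w h
    rw [hF _ h]
    simp only [hm]
    ring
  have kP : ∀ t w : ℂ, (t, w) ∈ WW (1 / 2) r e → p (t + w / 2) w + p (t - w / 2) w =
      2 * q (θ (t, w)) * cos ((α (t + w / 2) w - α (t - w / 2) w) / 2) := by
    intro t w h
    rw [hq _ h]
    exact N.sum t w h
  have kD : ∀ t w : ℂ, (t, w) ∈ WW (1 / 2) r e →
      deriv F (θ (t, w)) * (p (t + w / 2) w - p (t - w / 2) w) =
      2 * deriv q (θ (t, w)) * sin ((α (t + w / 2) w - α (t - w / 2) w) / 2) := by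
    intro t w h
    rw [N.diff t w h, ← hdq _ h]
    simp only [hm]
    ring
  exact ⟨ρ, θ, T.ρ0, aθ, hper, hz, hev, kA, kP, kD⟩

theorem cos_pre {κ Λ : ℝ} {H Φ : ℂ → ℂ} {r e : ℝ} {α p : ℂ → ℂ → ℂ} {J : ℂ → ℂ}
    (N : Lines κ Λ H Φ r e α p J) : ∀ᶠ u in 𝓝 ((0 : ℂ), (0 : ℂ)),
      cos ((α (u.1 + u.2 / 2) u.2 - α (u.1 - u.2 / 2) u.2) / 2) ≠ 0 := by
  have hr := N.hr
  have he := N.he
  have aα : AnalyticOnNhd ℂ (fun u : ℂ × ℂ => α u.1 u.2) (WW 0 r e) :=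
    Hol.analyticOnNhd_of_differentiableOn (isOpen_WW _ _ _) N.jα
  have h0 : ((0 : ℂ) + 0 / 2, (0 : ℂ)) ∈ WW 0 r e := ⟨by simpa using he, by simpa using hr⟩
  have h0' : ((0 : ℂ) - 0 / 2, (0 : ℂ)) ∈ WW 0 r e := ⟨by simpa using he, by simpa using hr⟩
  have g3 := (comp_add (u := ((0 : ℂ), (0 : ℂ))) (aα _ h0)).continuousAt
  have g4 := (comp_sub (u := ((0 : ℂ), (0 : ℂ))) (aα _ h0')).continuousAt
  have g5 : ContinuousAt (fun u : ℂ × ℂ =>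
      cos ((α (u.1 + u.2 / 2) u.2 - α (u.1 - u.2 / 2) u.2) / 2)) (0, 0) :=
    continuous_cos.continuousAt.comp ((g3.sub g4).div_const 2)
  refine g5.eventually_ne ?_
  simp

theorem lo_pre {r e ρ : ℝ} {θ : ℂ × ℂ → ℂ} (hr : 0 < r) (he : 0 < e) (hρ0 : 0 < ρ)
    (aθ : AnalyticOnNhd ℂ θ (WW (1 / 2) r e))
    (hper : ∀ t w : ℂ, (t, w) ∈ WW (1 / 2) r e → θ (t + 1, w) = θ (t, w) + 1)
    (hz : ∀ t : ℂ, |t.im| < r → |t.im| < ρ → θ (t, 0) = t) :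
    ∃ r₁ e₁ C : ℝ, 0 < r₁ ∧ 0 < e₁ ∧ r₁ ≤ r / 2 ∧ r₁ ≤ ρ / 2 ∧ e₁ ≤ e / 2 ∧ e₁ ≤ r₁ ∧ 0 ≤ C ∧
      ∀ t w : ℂ, |t.im| ≤ r₁ → ‖w‖ < e₁ → ‖θ (t, w) - t‖ ≤ C * ‖w‖ := by
  -- first domain
  set r₁ : ℝ := min (r / 2) (ρ / 2) with hr₁
  have hr₁0 : 0 < r₁ := lt_min (by positivity) (by positivity)
  have hr₁r : r₁ ≤ r / 2 := min_le_left _ _
  have hr₁ρ : r₁ ≤ ρ / 2 := min_le_right _ _
  -- the bound
  set D : ℂ × ℂ → ℂ := fun u => θ u - u.1 with hD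
  set e₁ : ℝ := min (e / 2) (min r₁ 1) with he₁
  have he₁0 : 0 < e₁ := lt_min (by positivity) (lt_min hr₁0 one_pos)
  have he₁e : e₁ ≤ e / 2 := min_le_left _ _
  have he₁r : e₁ ≤ r₁ := (min_le_right _ _).trans (min_le_left _ _)
  have hsub : ∀ {t w : ℂ}, |t.im| ≤ r₁ → ‖w‖ ≤ e₁ → (t, w) ∈ WW (1 / 2) r e := by
    intro t w h1 h2
    refine ⟨lt_of_le_of_lt h2 (by linarith), ?_⟩
    have h3 := abs_im_le_norm w
    show |t.im| + 1 / 2 * |w.im| < r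
    linarith
  obtain ⟨M, hM⟩ : ∃ M : ℝ, ∀ t w : ℂ, |t.im| ≤ r₁ → ‖w‖ ≤ e₁ → ‖D (t, w)‖ ≤ M := by
    have hK : IsCompact ((Icc (0 : ℝ) 1 ×ℂ Icc (-r₁) r₁) ×ˢ closedBall (0 : ℂ) e₁) :=
      (isCompact_Icc.reProdIm isCompact_Icc).prod (isCompact_closedBall _ _)
    have hc : ContinuousOn D ((Icc (0 : ℝ) 1 ×ℂ Icc (-r₁) r₁) ×ˢ closedBall (0 : ℂ) e₁) := by
      intro u hu
      have h1 : |u.1.im| ≤ r₁ := by
        have := hu.1.2
        rw [mem_preimage, mem_Icc] at this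
        exact abs_le.2 this
      have h2 : ‖u.2‖ ≤ e₁ := by simpa using hu.2
      exact ((aθ _ (hsub h1 h2)).continuousAt.sub continuous_fst.continuousAt).continuousWithinAt
    obtain ⟨M, hM⟩ := hK.exists_bound_of_continuousOn hc
    refine ⟨M, fun t w ht hw => ?_⟩
    have hP : Function.Periodic (fun x : ℝ => D ((x : ℂ) + t.im * I, w)) 1 := by
      intro x
      have h1 : ((x : ℂ) + t.im * I, w) ∈ WW (1 / 2) r e := hsub (by simpa using ht) hw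
      have h2 := hper _ _ h1
      simp only [hD]
      rw [show ((x + 1 : ℝ) : ℂ) + t.im * I = (x : ℂ) + t.im * I + 1 by push_cast; ring, h2]
      ring
    obtain ⟨x, hx, hx'⟩ := hP.exists_mem_Ico₀ one_pos t.re
    rw [re_add_im] at hx'
    rw [hx']
    refine hM _ ⟨⟨?_, ?_⟩, by simpa using hw⟩
    · simpa using And.intro hx.1 hx.2.le
    · simpa using abs_le.1 ht
  have hMw : ∀ t w : ℂ, |t.im| ≤ r₁ → ‖w‖ < e₁ → ‖D (t, w)‖ ≤ (|M| / e₁) * ‖w‖ := by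
    intro t w h1 h2
    have hd : DifferentiableOn ℂ (fun w => D (t, w)) (ball 0 e₁) := by
      intro w hw
      have h3 : (t, w) ∈ WW (1 / 2) r e := hsub h1 (by simpa using (mem_ball.1 hw).le)
      have h5 : AnalyticAt ℂ (fun w => θ (t, w)) w :=
        (aθ _ h3).comp_of_eq (f := fun w : ℂ => (t, w)) (analyticAt_const.prod analyticAt_id) rfl
      exact (h5.differentiableAt.sub_const t).differentiableWithinAt
    have h0 : D (t, 0) = 0 := by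
      simp only [hD]
      rw [hz t (by linarith) (by linarith), sub_self]
    have hb : MapsTo (fun w => D (t, w)) (ball 0 e₁) (closedBall (D (t, 0)) |M|) := by
      intro w hw
      rw [h0, mem_closedBall, dist_zero_right]
      exact (hM t w h1 (by simpa using (mem_ball.1 hw).le)).trans (le_abs_self M)
    have h6 := Complex.dist_le_div_mul_dist_of_mapsTo_ball (f := fun w => D (t, w)) (c := 0)
      (R₁ := e₁) (R₂ := |M|) (z := w) hd ?_ (by simpa using h2)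
    · simpa [h0] using h6
    · exact hb
  exact ⟨r₁, e₁, |M| / e₁, hr₁0, he₁0, hr₁r, hr₁ρ, he₁e, he₁r, by positivity, hMw⟩

theorem exists_loc {κ Λ : ℝ} {H Φ : ℂ → ℂ} {r e : ℝ} {α p : ℂ → ℂ → ℂ} {J F q : ℂ → ℂ}
    (hE : En κ Λ H Φ r e α p J F q) :
    ∃ (r₀ e₀ C₁ : ℝ) (θ : ℂ × ℂ → ℂ), Loc κ r e r₀ e₀ C₁ H α p F q θ := by
  obtain ⟨ρ, θ, hρ0, aθ, hper, hz, hev, kA, kP, kD⟩ := loc_pre hE
  have hr := hE.ctx.ln.hr
  have he := hE.ctx.ln.he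
  obtain ⟨r₁, e₁, C, hr₁0, he₁0, hr₁r, hr₁ρ, he₁e, he₁r, hC, hMw⟩ := lo_pre hr he hρ0 aθ hper hz
  have hcs := cos_pre hE.ctx.ln
  rw [Metric.eventually_nhds_iff] at hcs
  obtain ⟨ε, hε, hcs⟩ := hcs
  have hsub : ∀ {t w : ℂ}, |t.im| ≤ r₁ → ‖w‖ ≤ e₁ → (t, w) ∈ WW (1 / 2) r e := by
    intro t w h1 h2
    refine ⟨lt_of_le_of_lt h2 (by linarith), ?_⟩
    have h3 := abs_im_le_norm w
    show |t.im| + 1 / 2 * |w.im| < r
    linarith
  refine ⟨min r₁ (ε / 2), min e₁ (ε / 4), 1 + C, θ, ?_⟩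
  have q1 : min r₁ (ε / 2) ≤ r₁ := min_le_left _ _
  have q2 : min r₁ (ε / 2) ≤ ε / 2 := min_le_right _ _
  have q3 : min e₁ (ε / 4) ≤ e₁ := min_le_left _ _
  have q4 : min e₁ (ε / 4) ≤ ε / 4 := min_le_right _ _
  have S1 : ∀ {t w : ℂ}, (t, w) ∈ Tb (min r₁ (ε / 2)) (min e₁ (ε / 4)) →
      (t, w) ∈ WW (1 / 2) r e := by
    intro t w h
    exact hsub (h.1.le.trans q1) (h.2.le.trans q3)
  have G1 : 0 < min r₁ (ε / 2) := lt_min hr₁0 (by positivity)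
  have G2 : 0 < min e₁ (ε / 4) := lt_min he₁0 (by positivity)
  have G3 : min e₁ (ε / 4) ≤ min r₁ (ε / 2) := le_min (q3.trans he₁r) (q4.trans (by linarith))
  generalize min r₁ (ε / 2) = r₀ at *
  generalize min e₁ (ε / 4) = e₀ at *
  constructor
  · exact G1
  · exact G2
  · exact G3
  · linarith
  · linarith
  · linarith
  · linarith
  · exact fun u hu => aθ u (S1 hu)
  · exact fun t ht => hz t (by linarith) (by linarith)
  · exact fun t w h => hper t w (S1 h)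
  · exact fun t w h => hev t w (S1 h)
  · exact fun t w h => kA t w (S1 h)
  · exact fun t w h => kP t w (S1 h)
  · exact fun t w h => kD t w (S1 h)
  · intro t w h1 h2
    have h3 : ‖w‖ < e₁ := lt_of_lt_of_le h2 q3
    have h4 := hMw t w (by linarith) h3
    have h5 : C * ‖w‖ ≤ (1 + C) * ‖w‖ := by
      have := norm_nonneg w
      nlinarith
    exact h4.trans h5
  · intro t w h1 h2
    have h3 : dist (t, w) ((0 : ℂ), (0 : ℂ)) < ε := by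
      rw [dist_eq_norm, Prod.norm_def]
      simp only [Prod.fst_sub, Prod.snd_sub, sub_zero]
      exact max_lt (by linarith) (by linarith)
    exact @hcs (t, w) h3

end Vale.Agent.P097.H324.CD
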