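import Vale.Agent.P097.H324.CD.P1a
import Vale.Agent.P097.H877.Bd.Hart2

/-!
# P097 / case [d], row P, part P1: vertex positions on tubes

Owner: helper324.
-/

set_option linter.all false

open Complex Metric Filter Topology Set MeasureTheory
open scoped ComplexConjugate

namespace Vale.Agent.P097.H324.CD

open Vale.Agent.P097 Vale.Agent.P097.TA Vale.Agent.P097.H202 Vale.Agent.P097.SC
open Vale.Agent.P097.H456.Fct Vale.Agent.P097.CD

theorem an_cos {f : ℂ × ℂ → ℂ} {u : ℂ × ℂ} (h : AnalyticAt ℂ f u) :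
    AnalyticAt ℂ (fun u => cos (f u)) u :=
  (differentiable_cos.analyticAt _).comp_of_eq h rfl

theorem an_sin {f : ℂ × ℂ → ℂ} {u : ℂ × ℂ} (h : AnalyticAt ℂ f u) :
    AnalyticAt ℂ (fun u => sin (f u)) u :=
  (differentiable_sin.analyticAt _).comp_of_eq h rfl

theorem dens_univ (x : ℝ) : H877.Bd.Dens univ x := by
  intro ε hε
  refine ⟨1, one_pos, fun r _ _ => ?_⟩
  simp

/-- the lines agree near the real axis -/
theorem eq_lines {κ Λ : ℝ} {H Φ : ℂ → ℂ} {r e : ℝ} {α p : ℂ → ℂ → ℂ} {J : ℂ → ℂ}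
    (N : Lines κ Λ H Φ r e α p J) {y ρ : ℝ} {A P : ℂ × ℂ → ℂ} (T : Tu α p y ρ A P)
    (hρe : ρ ≤ e) : ∀ u ∈ Tb (min y r) ρ, A u = α u.1 u.2 ∧ P u = p u.1 u.2 := by
  have hm : 0 < min y r := lt_min T.y0 N.hr
  have sub1 : Tb (min y r) ρ ⊆ Tb y ρ := fun u hu => ⟨lt_of_lt_of_le hu.1 (min_le_left _ _), hu.2⟩
  have sub2 : Tb (min y r) ρ ⊆ WW 0 r e := fun u hu =>
    ⟨lt_of_lt_of_le hu.2 hρe, by
      have h1 := lt_of_lt_of_le hu.1 (min_le_right y r)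
      simpa using h1⟩
  have aα : AnalyticOnNhd ℂ (fun u : ℂ × ℂ => α u.1 u.2) (WW 0 r e) :=
    Hol.analyticOnNhd_of_differentiableOn (isOpen_WW _ _ _) N.jα
  have ap : AnalyticOnNhd ℂ (fun u : ℂ × ℂ => p u.1 u.2) (WW 0 r e) :=
    Hol.analyticOnNhd_of_differentiableOn (isOpen_WW _ _ _) N.jp
  have h0 := T.eq 0
  have e0 : (((0 : ℝ) : ℂ), (0 : ℂ)) = ((0 : ℂ), (0 : ℂ)) := by simp
  rw [e0] at h0
  have hA := eqOn_Tb hm T.ρ0 (T.aA.mono sub1) (aα.mono sub2) (h0.mono fun u hu => hu.1)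
  have hP := eqOn_Tb hm T.ρ0 (T.aP.mono sub1) (ap.mono sub2) (h0.mono fun u hu => hu.2)
  exact fun u hu => ⟨hA hu, hP hu⟩

/-- slices of the vertex positions -/
theorem slice {κ Λ : ℝ} {H Φ : ℂ → ℂ} {r e : ℝ} {α p : ℂ → ℂ → ℂ} {J F q Q : ℂ → ℂ}
    (hL : RowLift) (N : Lines κ Λ H Φ r e α p J) (hB : Bs Λ F q Q) {r₀ e₀ C₁ : ℝ}
    {θ₀ : ℂ × ℂ → ℂ} (L : Loc κ r e r₀ e₀ C₁ H α p F q θ₀) {y ρ : ℝ} {A P : ℂ × ℂ → ℂ}
    (T : Tu α p y ρ A P) (hρ : ρ ≤ e₀) (hy : 2 * ρ < y) {w : ℂ} (hw : ‖w‖ < ρ) :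
    ∃ θ' : ℂ → ℂ, DifferentiableOn ℂ θ' (Str (y - |w.im| / 2)) ∧
      θ' =ᶠ[𝓝 0] fun t => θ₀ (t, w) := by
  have hwi := abs_im_le_norm w
  have hρ0 := T.ρ0
  have hY : 0 < y - |w.im| / 2 := by linarith
  have hwe : ‖w‖ < e₀ := by linarith
  have hmem : ∀ t ∈ Str (y - |w.im| / 2), (t + w / 2, w) ∈ Tb y ρ ∧ (t - w / 2, w) ∈ Tb y ρ := by
    intro t ht
    have h1 : |t.im| < y - |w.im| / 2 := ht
    have h2 := abs_lt.1 h1
    have h3 := neg_abs_le w.im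
    have h4 := le_abs_self w.im
    refine ⟨⟨?_, hw⟩, ⟨?_, hw⟩⟩
    · show |(t + w / 2).im| < y
      rw [add_im, div_ofNat_im, abs_lt]
      constructor <;> linarith [h2.1, h2.2]
    · show |(t - w / 2).im| < y
      rw [sub_im, div_ofNat_im, abs_lt]
      constructor <;> linarith [h2.1, h2.2]
  have pa : ∀ {f : ℂ × ℂ → ℂ}, AnalyticOnNhd ℂ f (Tb y ρ) → ∀ t ∈ Str (y - |w.im| / 2),
      AnalyticAt ℂ (fun t => f (t + w / 2, w)) t ∧ AnalyticAt ℂ (fun t => f (t - w / 2, w)) t := by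
    intro f hf t ht
    exact ⟨(hf _ (hmem t ht).1).comp_of_eq (f := fun t : ℂ => (t + w / 2, w))
        ((analyticAt_id.add analyticAt_const).prod analyticAt_const) rfl,
      (hf _ (hmem t ht).2).comp_of_eq (f := fun t : ℂ => (t - w / 2, w))
        ((analyticAt_id.sub analyticAt_const).prod analyticAt_const) rfl⟩
  have m1 : MeromorphicOn (fun t => exp (2 * I * ((A (t + w / 2, w) + A (t - w / 2, w)) / 2)))
      (Str (y - |w.im| / 2)) := by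
    intro t ht
    have h1 := pa T.aA t ht
    exact ((analyticAt_const.mul ((h1.1.add h1.2).div_const)).cexp).meromorphicAt
  have m2 : MeromorphicOn (fun t => (P (t + w / 2, w) + P (t - w / 2, w)) /
      (2 * cos ((A (t + w / 2, w) - A (t - w / 2, w)) / 2)) *
      exp (-I * ((A (t + w / 2, w) + A (t - w / 2, w)) / 2))) (Str (y - |w.im| / 2)) := by
    intro t ht
    have h1 := pa T.aA t ht
    have h2 := pa T.aP t ht
    have h3 : AnalyticAt ℂ (fun t => cos ((A (t + w / 2, w) - A (t - w / 2, w)) / 2)) t :=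
      (differentiable_cos.analyticAt _).comp_of_eq
        (f := fun t => (A (t + w / 2, w) - A (t - w / 2, w)) / 2)
        ((h1.1.sub h1.2).div_const) rfl
    exact ((h2.1.add h2.2).meromorphicAt.div (analyticAt_const.mul h3).meromorphicAt).mul
      ((analyticAt_const.mul ((h1.1.add h1.2).div_const)).cexp).meromorphicAt
  have z0 : (0 : ℂ) ∈ Str (y - |w.im| / 2) := by
    show |(0 : ℂ).im| < _
    simpa using hY
  have slθ : ∀ t ∈ Str r₀, AnalyticAt ℂ (fun t => θ₀ (t, w)) t := by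
    intro t ht
    exact (L.an (t, w) ⟨ht, hwe⟩).comp_of_eq (f := fun t : ℂ => (t, w))
      (analyticAt_id.prod analyticAt_const) rfl
  have z0r : (0 : ℂ) ∈ Str r₀ := by
    show |(0 : ℂ).im| < _
    simpa using L.r0
  have hnc : ¬ ∀ᶠ t in 𝓝 (0 : ℂ), θ₀ (t, w) = θ₀ (0, w) := by
    intro h
    have h1 : AnalyticOnNhd ℂ (fun t => θ₀ (t, w)) (Str r₀) := slθ
    have h2 := h1.eqOn_of_preconnected_of_eventuallyEq (g := fun _ => θ₀ (0, w))
      (fun _ _ => analyticAt_const) (convex_Str r₀).isPreconnected z0r h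
    have h3 : (1 : ℂ) ∈ Str r₀ := by
      show |(1 : ℂ).im| < _
      simpa using L.r0
    have h4 : θ₀ (1, w) = θ₀ (0, w) := h2 h3
    have h5 := L.per 0 w ⟨by simpa using L.r0, hwe⟩
    rw [zero_add, h4] at h5
    exact one_ne_zero (left_eq_add.1 h5)
  have hev : ∀ᶠ t in 𝓝 (0 : ℂ),
      exp (2 * I * ((A (t + w / 2, w) + A (t - w / 2, w)) / 2)) = exp (2 * I * F (θ₀ (t, w))) ∧
      (P (t + w / 2, w) + P (t - w / 2, w)) /
        (2 * cos ((A (t + w / 2, w) - A (t - w / 2, w)) / 2)) *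
        exp (-I * ((A (t + w / 2, w) + A (t - w / 2, w)) / 2)) =
        q (θ₀ (t, w)) * exp (-I * F (θ₀ (t, w))) := by
    have hm : 0 < min y r - ρ / 2 := by
      have h1 : ρ / 2 < y := by linarith
      have h2 : ρ / 2 < r := by linarith [L.hr, L.r0]
      have := lt_min h1 h2
      linarith
    have hε : 0 < min r₀ (min y r - ρ / 2) := lt_min L.r0 hm
    filter_upwards [ball_mem_nhds (0 : ℂ) hε] with t ht
    rw [mem_ball, dist_zero_right] at ht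
    have h1 : ‖t‖ < r₀ := lt_of_lt_of_le ht (min_le_left _ _)
    have h2 : ‖t‖ < min y r - ρ / 2 := lt_of_lt_of_le ht (min_le_right _ _)
    have h3 := abs_im_le_norm t
    have h4 : (t, w) ∈ Tb (min y r - ρ / 2) ρ := ⟨by
      show |t.im| < _
      linarith, hw⟩
    have h5 := half_mem (y := min y r) (by linarith) h4
    have h6 := eq_lines N T (hρ.trans L.ee) _ h5.1
    have h7 := eq_lines N T (hρ.trans L.ee) _ h5.2
    simp only [] at h6 h7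
    have h8 : (t, w) ∈ Tb r₀ e₀ := ⟨by
      show |t.im| < _
      linarith, hwe⟩
    have h9 := L.sA t w h8
    have h10 := L.sP t w h8
    have h11 := L.cs t w h1 hwe
    rw [h6.1, h6.2, h7.1, h7.2, h9, h10]
    constructor
    · congr 1
      ring
    · rw [show 2 * F (θ₀ (t, w)) / 2 = F (θ₀ (t, w)) by ring]
      congr 1
      generalize cos ((α (t + w / 2) w - α (t - w / 2) w) / 2) = c at h11 ⊢
      field_simp
  exact hL hB (isOpen_Str _) (convex_Str _) m1 m2 z0 (slθ 0 z0r) hnc hev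

/-- **Row P, part P1** : vertex positions on tubes -/
theorem rowP1 (hL : RowLift) {κ Λ : ℝ} {H Φ : ℂ → ℂ} {r e : ℝ} {α p : ℂ → ℂ → ℂ}
    {J F q Q : ℂ → ℂ} (hE : En κ Λ H Φ r e α p J F q) (hB : Bs Λ F q Q) :
    ∃ e₁ > 0, ∃ C₁ ≥ 1, ∀ {y ρ : ℝ} {A P : ℂ × ℂ → ℂ},
      Tu α p y ρ A P → ρ ≤ e₁ → 2 * ρ < y → ∃ θ : ℂ × ℂ → ℂ, AnalyticOnNhd ℂ θ (Tb (y - ρ) ρ) ∧
      (∀ t : ℂ, |t.im| < y - ρ → θ (t, 0) = t) ∧
      (∀ t w : ℂ, (t, w) ∈ Tb (y - ρ) ρ → θ (t + 1, w) = θ (t, w) + 1) ∧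
      (∀ t w : ℂ, (t, w) ∈ Tb (y - ρ) ρ → θ (t, -w) = θ (t, w)) ∧
      (∀ t w : ℂ, (t, w) ∈ Tb (y - ρ) ρ →
        A (t + w / 2, w) + A (t - w / 2, w) = 2 * F (θ (t, w))) ∧
      (∀ t w : ℂ, (t, w) ∈ Tb (y - ρ) ρ → P (t + w / 2, w) + P (t - w / 2, w) =
        2 * q (θ (t, w)) * cos ((A (t + w / 2, w) - A (t - w / 2, w)) / 2)) ∧
      (∀ t w : ℂ, (t, w) ∈ Tb (y - ρ) ρ →
        deriv F (θ (t, w)) * (P (t + w / 2, w) - P (t - w / 2, w)) =
        2 * deriv q (θ (t, w)) * sin ((A (t + w / 2, w) - A (t - w / 2, w)) / 2)) ∧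
      Lo1 ρ C₁ θ := by
  obtain ⟨r₀, e₀, C₁, θ₀, L⟩ := exists_loc hE
  refine ⟨e₀, L.e0, C₁, L.C1, fun {y ρ A P} T hρ hy => ?_⟩
  have N := hE.ctx.ln
  have hρ0 := T.ρ0
  have hy0 := T.y0
  choose! g hg1 hg2 using fun w (hw : ‖w‖ < ρ) => slice hL N hB L T hρ hy hw
  set Θ : ℂ × ℂ → ℂ := fun u => g u.2 u.1 with hΘ
  set r₁ : ℝ := min r₀ (y - ρ / 2) with hr₁
  have hr₁0 : 0 < r₁ := lt_min L.r0 (by linarith)
  have hr₁a : r₁ ≤ r₀ := min_le_left _ _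
  have hr₁b : r₁ ≤ y - ρ / 2 := min_le_right _ _
  have hsub : ∀ w : ℂ, ‖w‖ < ρ → Str (y - ρ / 2) ⊆ Str (y - |w.im| / 2) := by
    intro w hw
    have := abs_im_le_norm w
    exact Str_mono (by linarith)
  -- agreement near the real axis
  have heq : ∀ u ∈ Tb r₁ ρ, Θ u = θ₀ u := by
    rintro ⟨t, w⟩ ⟨h1, h2⟩
    have h1' : |t.im| < r₁ := h1
    have h2' : ‖w‖ < ρ := h2
    have k1 : AnalyticOnNhd ℂ (g w) (Str r₁) :=
      ((hg1 w h2').mono ((Str_mono hr₁b).trans (hsub w h2'))).analyticOnNhd (isOpen_Str _)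
    have k2 : AnalyticOnNhd ℂ (fun t => θ₀ (t, w)) (Str r₁) := by
      intro t ht
      exact (L.an (t, w) ⟨lt_of_lt_of_le ht hr₁a, by linarith⟩).comp_of_eq
        (f := fun t : ℂ => (t, w)) (analyticAt_id.prod analyticAt_const) rfl
    have z0 : (0 : ℂ) ∈ Str r₁ := by
      show |(0 : ℂ).im| < _
      simpa using hr₁0
    exact k1.eqOn_of_preconnected_of_eventuallyEq k2 (convex_Str r₁).isPreconnected z0
      (hg2 w h2') h1'
  -- joint analyticity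
  have han : AnalyticOnNhd ℂ Θ (Tb (y - ρ) ρ) := by
    rintro ⟨t₁, w₁⟩ ⟨h1, h2⟩
    have h1' : |t₁.im| < y - ρ := h1
    have h2' : ‖w₁‖ < ρ := h2
    set δ : ℝ := ρ - ‖w₁‖ with hδ
    have hδ0 : 0 < δ := by linarith
    have hw : ∀ s : ℂ, ‖s‖ < δ → ‖w₁ + s‖ < ρ := by
      intro s hs
      have := norm_add_le w₁ s
      linarith
    have hball : ∀ R : ℝ, ball ((t₁.re : ℂ)) R ⊆ Str R := by
      intro R z hz
      rw [mem_ball, dist_eq_norm] at hz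
      have := abs_im_le_norm (z - (t₁.re : ℂ))
      rw [sub_im, ofReal_im, sub_zero] at this
      show |z.im| < R
      linarith
    have hf : DifferentiableOn ℂ (fun v : ℂ × ℂ => θ₀ (v.1, w₁ + v.2))
        (ball ((t₁.re : ℂ)) r₁ ×ˢ ball ((0 : ℝ) : ℂ) δ) := by
      rintro ⟨z, s⟩ ⟨hz, hs⟩
      have hs' : ‖s‖ < δ := by simpa using hs
      have k1 : (z, w₁ + s) ∈ Tb r₀ e₀ := by
        have k2 : |z.im| < r₁ := hball r₁ hz
        have k3 := hw s hs'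
        exact ⟨by
          show |z.im| < _
          linarith, by
          show ‖w₁ + s‖ < _
          linarith⟩
      have k4 : AnalyticAt ℂ (fun v : ℂ × ℂ => θ₀ (v.1, w₁ + v.2)) (z, s) :=
        (L.an _ k1).comp_of_eq (f := fun v : ℂ × ℂ => (v.1, w₁ + v.2))
          (analyticAt_fst.prod (analyticAt_const.add analyticAt_snd)) rfl
      exact k4.differentiableAt.differentiableWithinAt
    obtain ⟨δ', hδ'0, hδ'δ, G, hG1, hG2, -⟩ := H877.Bd.hart (ξ₁ := (t₁.re : ℂ)) (u₀ := 0)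
      (ρ₁ := y - ρ / 2) hr₁0 hδ0 hf (dens_univ 0) (g := fun u ξ => Θ (ξ, w₁ + u)) (by
        intro u _ hu
        have hu' : ‖(u : ℂ)‖ < δ := by
          rw [norm_real, Real.norm_eq_abs]
          simpa using hu
        have k1 := hw _ hu'
        refine ⟨?_, ?_⟩
        · exact (hg1 _ k1).mono ((hball _).trans (hsub _ k1))
        · have k2 : Str r₁ ∈ 𝓝 ((t₁.re : ℂ)) := (isOpen_Str r₁).mem_nhds (real_mem_Str hr₁0 _)
          filter_upwards [k2] with z hz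
          exact heq (z, w₁ + u) ⟨hz, k1⟩) (ρ := y - ρ) (by linarith) (by linarith)
    have key : ∀ z ∈ ball ((t₁.re : ℂ)) (y - ρ), ∀ s ∈ ball ((0 : ℝ) : ℂ) δ',
        G (z, s) = Θ (z, w₁ + s) := by
      intro z hz s hs
      have hs' : ‖s‖ < δ' := by simpa using hs
      have k1 := hw s (by linarith)
      have k2 : AnalyticOnNhd ℂ (fun z => G (z, s)) (ball ((t₁.re : ℂ)) (y - ρ)) := by
        refine DifferentiableOn.analyticOnNhd ?_ isOpen_ball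
        exact hG1.comp (by fun_prop) fun z hz => ⟨hz, hs⟩
      have k3 : AnalyticOnNhd ℂ (fun z => Θ (z, w₁ + s)) (ball ((t₁.re : ℂ)) (y - ρ)) := by
        refine DifferentiableOn.analyticOnNhd ?_ isOpen_ball
        exact (hg1 _ k1).mono (((hball _).trans (Str_mono (by linarith))).trans (hsub _ k1))
      have hm0 : 0 < min r₁ (y - ρ) := lt_min hr₁0 (by linarith)
      refine k2.eqOn_of_preconnected_of_eventuallyEq k3 (convex_ball _ _).isPreconnected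
        (mem_ball_self (by linarith)) ?_ hz
      filter_upwards [ball_mem_nhds ((t₁.re : ℂ)) hm0] with ξ hξ
      have k4 := hG2 ξ s hξ hs
      have k5 : |ξ.im| < r₁ := hball r₁ (ball_subset_ball (min_le_left _ _) hξ)
      show G (ξ, s) = Θ (ξ, w₁ + s)
      rw [k4, heq (ξ, w₁ + s) ⟨k5, k1⟩]
    have ht₁ : t₁ ∈ ball ((t₁.re : ℂ)) (y - ρ) := by
      rw [mem_ball, dist_eq_norm]
      have : t₁ - (t₁.re : ℂ) = (t₁.im : ℂ) * I := by
        apply Complex.ext <;> simp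
      rw [this, norm_mul, norm_I, mul_one, norm_real, Real.norm_eq_abs]
      exact h1'
    have h0 : (0 : ℂ) ∈ ball ((0 : ℝ) : ℂ) δ' := by simpa using hδ'0
    have aG : AnalyticAt ℂ G (t₁, 0) :=
      Hol.analyticOnNhd_of_differentiableOn (isOpen_ball.prod isOpen_ball) hG1 _ ⟨ht₁, h0⟩
    have aG' : AnalyticAt ℂ (fun u : ℂ × ℂ => G (u.1, u.2 - w₁)) (t₁, w₁) :=
      aG.comp_of_eq (f := fun u : ℂ × ℂ => (u.1, u.2 - w₁))
        (analyticAt_fst.prod (analyticAt_snd.sub analyticAt_const)) (by simp)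
    refine aG'.congr ?_
    have k1 : {u : ℂ × ℂ | u.1 ∈ ball ((t₁.re : ℂ)) (y - ρ) ∧ u.2 - w₁ ∈ ball ((0 : ℝ) : ℂ) δ'} ∈
        𝓝 (t₁, w₁) := by
      have k2 : IsOpen {u : ℂ × ℂ | u.1 ∈ ball ((t₁.re : ℂ)) (y - ρ) ∧
          u.2 - w₁ ∈ ball ((0 : ℝ) : ℂ) δ'} := by
        have k3 : IsOpen {u : ℂ × ℂ | u.1 ∈ ball ((t₁.re : ℂ)) (y - ρ)} :=
          isOpen_ball.preimage continuous_fst
        have k4 : IsOpen {u : ℂ × ℂ | u.2 - w₁ ∈ ball ((0 : ℝ) : ℂ) δ'} :=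
          isOpen_ball.preimage (continuous_snd.sub continuous_const)
        exact k3.inter k4
      exact k2.mem_nhds ⟨ht₁, by simpa using h0⟩
    filter_upwards [k1] with u hu
    have k5 := key u.1 hu.1 (u.2 - w₁) hu.2
    rw [k5, add_sub_cancel]
  -- consequences
  have hsub' : Tb (min r₁ (y - ρ)) ρ ⊆ Tb r₁ ρ := fun u hu =>
    ⟨lt_of_lt_of_le hu.1 (min_le_left _ _), hu.2⟩
  have hyρ : 0 < y - ρ := by linarith
  have hn : Tb r₁ ρ ∈ 𝓝 ((0 : ℂ), (0 : ℂ)) :=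
    (isOpen_Tb r₁ ρ).mem_nhds ⟨by simpa using hr₁0, by simpa using hρ0⟩
  have hme : 0 < min y r - ρ / 2 := by
    have h1 : ρ / 2 < y := by linarith
    have h2 : ρ / 2 < r := by linarith [L.hr, L.r0]
    have := lt_min h1 h2
    linarith
  have hn2 : Tb (min y r - ρ / 2) ρ ∈ 𝓝 ((0 : ℂ), (0 : ℂ)) :=
    (isOpen_Tb _ ρ).mem_nhds ⟨by simpa using hme, by simpa using hρ0⟩
  have loc0 : ∀ᶠ u in 𝓝 ((0 : ℂ), (0 : ℂ)), u ∈ Tb r₀ e₀ ∧ Θ u = θ₀ u ∧
      A (u.1 + u.2 / 2, u.2) = α (u.1 + u.2 / 2) u.2 ∧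
      A (u.1 - u.2 / 2, u.2) = α (u.1 - u.2 / 2) u.2 ∧
      P (u.1 + u.2 / 2, u.2) = p (u.1 + u.2 / 2) u.2 ∧
      P (u.1 - u.2 / 2, u.2) = p (u.1 - u.2 / 2) u.2 := by
    filter_upwards [hn, hn2] with u h1 h2
    have h5 := half_mem (y := min y r) (by linarith) h2
    have h6 := eq_lines N T (hρ.trans L.ee) _ h5.1
    have h7 := eq_lines N T (hρ.trans L.ee) _ h5.2
    exact ⟨⟨lt_of_lt_of_le h1.1 hr₁a, lt_of_lt_of_le h1.2 hρ⟩, heq u h1, h6.1, h7.1, h6.2, h7.2⟩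
  have hA := half_an (y' := y - ρ) T.aA (by linarith)
  have hP := half_an (y' := y - ρ) T.aP (by linarith)
  have hdelta := fun u hu => ((hA.1 u hu).sub (hA.2 u hu)).div_const (c := 2)
  have aF : AnalyticOnNhd ℂ F univ := hE.dF.differentiableOn.analyticOnNhd isOpen_univ
  have aq : AnalyticOnNhd ℂ q univ := hE.dq.differentiableOn.analyticOnNhd isOpen_univ
  have aF' : AnalyticOnNhd ℂ (deriv F) univ := aF.deriv
  have aq' : AnalyticOnNhd ℂ (deriv q) univ := aq.deriv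
  have cmp : ∀ {k : ℂ → ℂ}, AnalyticOnNhd ℂ k univ →
      AnalyticOnNhd ℂ (fun u => k (Θ u)) (Tb (y - ρ) ρ) := fun hk u hu =>
    (hk _ (mem_univ _)).comp_of_eq (han u hu) rfl
  have two : AnalyticOnNhd ℂ (fun _ : ℂ × ℂ => (2 : ℂ)) (Tb (y - ρ) ρ) := analyticOnNhd_const
  refine ⟨Θ, han, ?_, ?_, ?_, ?_, ?_, ?_, ?_⟩
  · intro t ht
    have k1 : AnalyticOnNhd ℂ (g 0) (Str (y - ρ)) := by
      refine DifferentiableOn.analyticOnNhd ?_ (isOpen_Str _)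
      have h0 : ‖(0 : ℂ)‖ < ρ := by simpa using hρ0
      exact (hg1 0 h0).mono ((Str_mono (by linarith)).trans (hsub 0 h0))
    have z0 : (0 : ℂ) ∈ Str (y - ρ) := by
      show |(0 : ℂ).im| < _
      simpa using hyρ
    refine k1.eqOn_of_preconnected_of_eventuallyEq (g := fun t => t) (fun _ _ => analyticAt_id)
      (convex_Str _).isPreconnected z0 ?_ ht
    filter_upwards [hg2 0 (by simpa using hρ0), (isOpen_Str r₀).mem_nhds (show (0 : ℂ) ∈ Str r₀ by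
      show |(0 : ℂ).im| < _
      simpa using L.r0)] with z h1 h2
    rw [h1]
    exact L.z z h2
  · intro t w h
    have k1 : AnalyticOnNhd ℂ (fun u : ℂ × ℂ => Θ (u.1 + 1, u.2)) (Tb (y - ρ) ρ) := by
      intro u hu
      exact (han (u.1 + 1, u.2) ⟨by simpa using hu.1, hu.2⟩).comp_of_eq
        (f := fun u : ℂ × ℂ => (u.1 + 1, u.2))
        ((analyticAt_fst.add analyticAt_const).prod analyticAt_snd) rfl
    refine eqOn_Tb hyρ hρ0 k1 (han.add analyticOnNhd_const) ?_ h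
    filter_upwards [hn, loc0] with u h1 h2
    have h3 : (u.1 + 1, u.2) ∈ Tb r₁ ρ := ⟨by simpa using h1.1, h1.2⟩
    show Θ (u.1 + 1, u.2) = Θ u + 1
    rw [heq _ h3, h2.2.1, L.per u.1 u.2 h2.1]
  · intro t w h
    have k1 : AnalyticOnNhd ℂ (fun u : ℂ × ℂ => Θ (u.1, -u.2)) (Tb (y - ρ) ρ) := by
      intro u hu
      exact (han (u.1, -u.2) ⟨hu.1, by simpa using hu.2⟩).comp_of_eq
        (f := fun u : ℂ × ℂ => (u.1, -u.2)) (analyticAt_fst.prod analyticAt_snd.neg) rfl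
    refine eqOn_Tb hyρ hρ0 k1 han ?_ h
    filter_upwards [hn, loc0] with u h1 h2
    have h3 : (u.1, -u.2) ∈ Tb r₁ ρ := ⟨h1.1, by simpa using h1.2⟩
    show Θ (u.1, -u.2) = Θ u
    rw [heq _ h3, h2.2.1, L.ev u.1 u.2 h2.1]
  · intro t w h
    refine eqOn_Tb hyρ hρ0 (hA.1.add hA.2) (two.mul (cmp aF)) ?_ h
    filter_upwards [loc0] with u h2
    show A (u.1 + u.2 / 2, u.2) + A (u.1 - u.2 / 2, u.2) = 2 * F (Θ u)
    rw [h2.2.2.1, h2.2.2.2.1, h2.2.1]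
    exact L.sA u.1 u.2 h2.1
  · intro t w h
    refine eqOn_Tb hyρ hρ0 (hP.1.add hP.2) (f := _) (g := fun u : ℂ × ℂ => 2 * q (Θ u) *
      cos ((A (u.1 + u.2 / 2, u.2) - A (u.1 - u.2 / 2, u.2)) / 2))
      (fun u hu => ((two u hu).mul (cmp aq u hu)).mul (an_cos (hdelta u hu))) ?_ h
    filter_upwards [loc0] with u h2
    show P (u.1 + u.2 / 2, u.2) + P (u.1 - u.2 / 2, u.2) = 2 * q (Θ u) *
      cos ((A (u.1 + u.2 / 2, u.2) - A (u.1 - u.2 / 2, u.2)) / 2)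
    rw [h2.2.2.1, h2.2.2.2.1, h2.2.2.2.2.1, h2.2.2.2.2.2, h2.2.1]
    exact L.sP u.1 u.2 h2.1
  · intro t w h
    refine eqOn_Tb hyρ hρ0 (f := fun u : ℂ × ℂ => deriv F (Θ u) *
      (P (u.1 + u.2 / 2, u.2) - P (u.1 - u.2 / 2, u.2))) (g := fun u : ℂ × ℂ =>
      2 * deriv q (Θ u) * sin ((A (u.1 + u.2 / 2, u.2) - A (u.1 - u.2 / 2, u.2)) / 2))
      (fun u hu => (cmp aF' u hu).mul ((hP.1 u hu).sub (hP.2 u hu)))
      (fun u hu => ((two u hu).mul (cmp aq' u hu)).mul (an_sin (hdelta u hu))) ?_ h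
    filter_upwards [loc0] with u h2
    rw [h2.2.2.1, h2.2.2.2.1, h2.2.2.2.2.1, h2.2.2.2.2.2, h2.2.1]
    exact L.dP u.1 u.2 h2.1
  · intro t w h1 h2
    have h3 : (t, w) ∈ Tb r₁ ρ := by
      refine ⟨lt_min ?_ ?_, h2⟩
      · show |t.im| < r₀
        linarith [L.er]
      · show |t.im| < y - ρ / 2
        linarith
    show ‖Θ (t, w) - t‖ ≤ C₁ * ‖w‖
    rw [heq _ h3]
    exact L.lo t w h1 (by linarith)

end Vale.Agent.P097.H324.CD
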