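import Vale.Agent.P097.H324.CD.P1b
import Vale.Agent.P097.H830.CD.P2

/-!
# P097 / case [d], row P

Owners: helper324 (P1), helper830 (P2).
-/

set_option linter.all false

open Complex Metric Filter Topology Set

namespace Vale.Agent.P097.H324.CD

open Vale.Agent.P097.CD Vale.Agent.P097.H830.CD

/-- **Row P** from Row Lift -/
theorem rowP (hL : RowLift) : RowP := by
  intro κ Λ H Φ r e α p J F q Q E B
  obtain ⟨e₁, he₁, C₁, hC₁, h⟩ := rowP1 hL E B
  refine ⟨min e₁ e, lt_min he₁ E.ctx.ln.he, C₁, hC₁, fun {y ρ A P} T hρ hy => ?_⟩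
  obtain ⟨θ, an, z, per, ev, sA, sP, dP, lo⟩ := h T (hρ.trans (min_le_left _ _)) hy
  have hy1 : 0 < y - ρ := by linarith [T.ρ0]
  refine ⟨θ, po_of E B T (hρ.trans (min_le_right _ _)) hy an (z 0 (by simpa using hy1)) ?_, lo⟩
  filter_upwards [(isOpen_Tb (y - ρ) ρ).mem_nhds
    (show ((0 : ℂ), (0 : ℂ)) ∈ Tb (y - ρ) ρ from ⟨by simpa using hy1, by simpa using T.ρ0⟩)]
    with u hu
  exact sA u.1 u.2 hu

end Vale.Agent.P097.H324.CD
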